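import Mathlib
import Vale.Agent.Lib.P065.Defs
import Vale.Agent.Lib.P065.Main

namespace Vale.Agent.Results.P065.A_main

open Finset Vale.Agent.Lib.P065

open Classical in
/-- Let `P` be a finite planar set with no three collinear, peeled by a chain
`P = S 0 ⊇ S 1 ⊇ … ⊇ S t = ∅` in which every point removed at step `j` is an extreme point of the
convex hull of `S j` (for instance, the onion layers of `P`, with `t` the number of layers).
Let `b = |P| + 2 * ∑_{1 ≤ j < t} |P \ S j|`; then `b ≤ (2 * t - 1) * |P|`, the number of `k`-sets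
of `P` is at most `b` for every `k ≥ 1`, and twice the number of halving lines of `P` is
at most `b`. -/
theorem result (P : Finset (ℝ × ℝ)) (hP : NoThreeCollinear P) (t : ℕ)
    (S : ℕ → Finset (ℝ × ℝ)) (hS0 : S 0 = P) (hSt : S t = ∅)
    (hmono : ∀ j < t, S (j + 1) ⊆ S j)
    (hext : ∀ j < t, ∀ x ∈ S j \ S (j + 1),
      x ∈ (convexHull ℝ (S j : Set (ℝ × ℝ))).extremePoints ℝ) :
    (P.card + 2 * ∑ j ∈ Ico 1 t, (P \ S j).card ≤ (2 * t - 1) * P.card) ∧
    (∀ k : ℕ, 1 ≤ k → (kSets P k).card ≤ P.card + 2 * ∑ j ∈ Ico 1 t, (P \ S j).card) ∧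
    2 * (halvingPairs P).card ≤ P.card + 2 * ∑ j ∈ Ico 1 t, (P \ S j).card := by
  have hb : P.card + 2 * ∑ j ∈ Ico 1 t, (P \ S j).card ≤ (2 * t - 1) * P.card := by
    rcases Nat.eq_zero_or_pos t with rfl | ht
    · have hPe : P = ∅ := by rw [← hS0, hSt]
      simp [hPe]
    · have hs : ∑ j ∈ Ico 1 t, (P \ S j).card ≤ ∑ _j ∈ Ico 1 t, P.card :=
        sum_le_sum (fun j _ => card_le_card sdiff_subset)
      rw [sum_const, Nat.card_Ico, smul_eq_mul] at hs
      obtain ⟨s, rfl⟩ : ∃ s, t = s + 1 := ⟨t - 1, by omega⟩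
      have e1 : 2 * (s + 1) - 1 = 2 * s + 1 := by omega
      have e2 : s + 1 - 1 = s := by omega
      rw [e1]
      rw [e2] at hs
      nlinarith
  refine ⟨hb, ?_, ?_⟩
  · intro k hk
    rcases lt_trichotomy k P.card with hlt | heq | hgt
    · exact (kSets_card_le P hP k hk hlt).trans (levelEdges_chain P hP t S hS0 hSt hmono hext _)
    · have hsub : kSets P k ⊆ {P} := by
        intro T hT
        have h' := mem_powersetCard.mp (mem_filter.mp hT).1
        exact mem_singleton.mpr (eq_of_subset_of_card_le h'.1 (by omega))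
      have h1 := card_le_card hsub
      rw [card_singleton] at h1
      have h2 : 1 ≤ P.card := by omega
      omega
    · have hemp : kSets P k = ∅ := by
        apply eq_empty_of_forall_notMem
        intro T hT
        have h' := mem_powersetCard.mp (mem_filter.mp hT).1
        have := card_le_card h'.1
        omega
      rw [hemp]
      simp
  · exact (two_halving_le P hP).trans (levelEdges_chain P hP t S hS0 hSt hmono hext _)

end Vale.Agent.Results.P065.A_main
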